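import Vale.Agent.Lib.P329.Prime5
import Vale.Agent.Lib.P329.Alt4

/-!
# P329 (generalized star height): finite groups that are abelian by elementary abelian

Let `p` be a prime and let `G` be a finite group with a normal subgroup `N` any two elements of
which commute, such that `G / N` is an elementary abelian `p`-group: all commutators and all
`p`-th powers of elements of `G` lie in `N`. Then for every map `φ` from a finite alphabet `α`
to `G` and every subset `P` of `G`, the language of all words whose image under the monoid
morphism extending `φ` lies in `P` is denoted by a generalized regular expression of star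
height at most one. So every language recognized by such a group has generalized star height
at most one.

The second part is the special case of an abelian normal subgroup of prime index, and the
third part the special case of the alternating group on four points (whose Klein
four-subgroup is abelian of index three).
-/

namespace Vale.Agent.Results.P329.AbelianByElementary

open Vale.Agent.Lib.P329

theorem result :
    (∀ (α : Type) [Fintype α] [DecidableEq α] (G : Type) [Group G] [Finite G]
      (N : Subgroup G) [N.Normal] (p : ℕ), p.Prime →
      (∀ x ∈ N, ∀ y ∈ N, x * y = y * x) → (∀ x y : G, x * y * x⁻¹ * y⁻¹ ∈ N) →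
      (∀ x : G, x ^ p ∈ N) → ∀ (φ : α → G) (P : Set G),
        ∃ e : GExp α, e.sh ≤ 1 ∧ ∀ w : List α, w ∈ e.lang ↔ (w.map φ).prod ∈ P) ∧
    (∀ (α : Type) [Fintype α] [DecidableEq α] (G : Type) [Group G] [Finite G]
      (N : Subgroup G) [N.Normal],
      (∀ x ∈ N, ∀ y ∈ N, x * y = y * x) → N.index.Prime → ∀ (φ : α → G) (P : Set G),
        ∃ e : GExp α, e.sh ≤ 1 ∧ ∀ w : List α, w ∈ e.lang ↔ (w.map φ).prod ∈ P) ∧
    (∀ (α : Type) [Fintype α] [DecidableEq α] (φ : α → alternatingGroup (Fin 4))
      (P : Set (alternatingGroup (Fin 4))),
        ∃ e : GExp α, e.sh ≤ 1 ∧ ∀ w : List α, w ∈ e.lang ↔ (w.map φ).prod ∈ P) :=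
  ⟨fun α _ _ G _ _ N _ p hp hN hc hpow φ P =>
      recognized_elementary α G N p hp hN hc hpow φ P,
    fun α _ _ G _ _ N _ hN hidx φ P => recognized_prime_index α G N hN hidx φ P,
    fun α _ _ φ P => recognized_alt4 α φ P⟩

end Vale.Agent.Results.P329.AbelianByElementary
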