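import Vale.Agent.Lib.P329.ClassFour

/-!
# P329 (generalized star height): finite metabelian nilpotent groups of class at most four

Every language recognized by a finite nilpotent group of nilpotency class at most four whose
commutator subgroup is commutative is denoted by a generalized regular expression of star
height at most one.

Let `G` be a finite nilpotent group with `Group.nilpotencyClass G ≤ 4` in which any two
elements of the commutator subgroup `commutator G` commute, let `φ` be a map from a finite
alphabet to `G` and let `P` be a set of elements of `G`. Then the language of all words whose
product of `φ`-values lies in `P` has such an expression.

Every nilpotent group of class at most three satisfies the hypothesis, so this contains the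
hand-in `NilpotentClassThree`.

The proof peels off one letter at a time: the correction term lies in the commutator subgroup,
which is commutative, its fivefold discrete derivatives vanish, and a discrete Taylor formula
shows that the product only depends on the numbers, modulo the order of the group, of the
scattered subwords with a given first letter and a given multiset of at most three further
letters. Languages defined by these numbers have star height at most one.
-/

namespace Vale.Agent.Results.P329.MetabelianClassFour

open Vale.Agent.Lib.P329

theorem result :
    ∀ (G : Type) [Group G] [Finite G] [Group.IsNilpotent G], Group.nilpotencyClass G ≤ 4 →
      (∀ a ∈ commutator G, ∀ b ∈ commutator G, a * b = b * a) →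
      ∀ (α : Type) [Fintype α] [DecidableEq α] (φ : α → G) (P : Set G),
        ∃ e : GExp α, e.sh ≤ 1 ∧ ∀ w : List α, w ∈ e.lang ↔ (w.map φ).prod ∈ P :=
  fun _ _ _ _ h4 hmet _ _ _ φ P => metabelian_class_four_language h4 hmet φ P

end Vale.Agent.Results.P329.MetabelianClassFour
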