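import Vale.Agent.Lib.P329.ClassThree

/-!
# P329 (generalized star height): nilpotency class three, for groups and for scattered subwords

Four statements about generalized regular expressions of star height at most one.

1. Let `G` be a finite nilpotent group with `Group.nilpotencyClass G ≤ 3`, let `φ` be a map
   from a finite alphabet to `G` and let `P` be a set of elements of `G`. Then the language of
   all words whose product of `φ`-values lies in `P` is denoted by such an expression.
2. The same holds for every finite group satisfying the law `⁅⁅⁅x, y⁆, z⁆, t⁆ = 1`, where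
   `⁅a, b⁆ = a * b * a⁻¹ * b⁻¹` is the commutator of two group elements.
3. For words `u`, `w` over a finite alphabet, `List.count u (List.sublists w)` is the number of
   occurrences of `u` as a scattered subword of `w`. Fix `n ≥ 1`. Every language that is a
   union of classes of the relation: `w` and `w'` contain every word of length at most three
   the same number of times modulo `n` as a scattered subword, is denoted by such an
   expression.
4. In particular this holds for the language of all words that contain a given word of length
   at most three a given number of times modulo `n` as a scattered subword.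

Statements 1 and 2 were the hand-in `NilpotentClassThree`, statements 3 and 4 the hand-in
`SubwordsLengthThree`; they are put together here because a problem has four hand-in files.
-/

namespace Vale.Agent.Results.P329.NilpotentClassThreeSubwords

open Vale.Agent.Lib.P329

open scoped commutatorElement

theorem result :
    (∀ (G : Type) [Group G] [Finite G] [Group.IsNilpotent G], Group.nilpotencyClass G ≤ 3 →
      ∀ (α : Type) [Fintype α] [DecidableEq α] (φ : α → G) (P : Set G),
        ∃ e : GExp α, e.sh ≤ 1 ∧ ∀ w : List α, w ∈ e.lang ↔ (w.map φ).prod ∈ P) ∧
    (∀ (G : Type) [Group G] [Finite G], (∀ x y z t : G, ⁅⁅⁅x, y⁆, z⁆, t⁆ = 1) →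
      ∀ (α : Type) [Fintype α] [DecidableEq α] (φ : α → G) (P : Set G),
        ∃ e : GExp α, e.sh ≤ 1 ∧ ∀ w : List α, w ∈ e.lang ↔ (w.map φ).prod ∈ P) ∧
    (∀ (α : Type) [Fintype α] [DecidableEq α] (n : ℕ), 0 < n → ∀ S : Set (List α → ℕ),
      ∃ e : GExp α, e.sh ≤ 1 ∧ ∀ w : List α, w ∈ e.lang ↔
        (fun u : List α => if u.length ≤ 3 then (List.sublists w).count u % n else 0) ∈ S) ∧
    (∀ (α : Type) [Fintype α] [DecidableEq α] (n : ℕ), 0 < n → ∀ u : List α, u.length ≤ 3 →
      ∀ r : ℕ, ∃ e : GExp α, e.sh ≤ 1 ∧ ∀ w : List α, w ∈ e.lang ↔
        (List.sublists w).count u % n = r) := by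
  refine ⟨fun _ _ _ _ h3 _ _ _ φ P => class_three_language h3 φ P,
    fun _ _ _ hc _ _ _ φ P => class_three_law_language hc φ P,
    fun α _ _ n hn S => subword_three n hn S, ?_⟩
  intro α _ _ n hn u hu r
  obtain ⟨e, he, hw⟩ := subword_three (α := α) n hn {f | f u = r}
  refine ⟨e, he, fun w => ?_⟩
  rw [hw w]
  show (if u.length ≤ 3 then (List.sublists w).count u % n else 0) = r ↔ _
  rw [if_pos hu]

end Vale.Agent.Results.P329.NilpotentClassThreeSubwords
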