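import Vale.Agent.Lib.P329.CounterFree5

/-!
# P329 (generalized star height): automata that are counter-free away from one state

Let `δ : Q → α → Q` be the transition function of a complete deterministic automaton with a
finite set `Q` of states over a finite alphabet `α`, and let `o` be a state. Suppose that the
automaton is counter-free away from `o`: whenever reading a word `u` a positive number `n` of
times from a state `q` leads back to `q`, and no initial segment of `u ... u` (`n` times,
including the empty and the full segment) leads from `q` to `o`, then reading `u` once from `q`
leads back to `q`. Then for every initial state `p` and every set `F` of final states, the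
accepted language is denoted by a generalized regular expression of star height at most one.
-/

namespace Vale.Agent.Results.P329.OneStateCounterFree

open Vale.Agent.Lib.P329

theorem result (α Q : Type) [Fintype α] [DecidableEq α] [Fintype Q] [DecidableEq Q]
    (δ : Q → α → Q) (o : Q)
    (h : ∀ (q : Q) (u : List α) (n : ℕ), 0 < n →
      (∀ w₁ w₂ : List α, (List.replicate n u).flatten = w₁ ++ w₂ → w₁.foldl δ q ≠ o) →
      ((List.replicate n u).flatten).foldl δ q = q → u.foldl δ q = q)
    (p : Q) (F : Set Q) :
    ∃ e : GExp α, e.sh ≤ 1 ∧ ∀ w : List α, w ∈ e.lang ↔ w.foldl δ p ∈ F :=
  cfa_reset_automaton α Q δ o h p F

end Vale.Agent.Results.P329.OneStateCounterFree
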